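import Crest.Agent.R165.Gr

/-! # R165 block G: gauge calculus (owner helper53; statements FROZEN, add lemmas freely) -/

set_option autoImplicit false
noncomputable section
open Classical

namespace Crest.Agent.R165

variable {I : Type}

/-! ### gauge calculus -/

theorem GBd.mono {U U' : Set (GV I)} {F : Gr I} {c c' : ℝ} (h : GBd U F c) (hU : U ⊆ U') (hc : c ≤ c') :
    GBd U' F c' := by
  obtain ⟨L, h1, h2, h3⟩ := h
  exact ⟨L, fun p hp u hu => hU (h1 p hp u hu), h2, h3.trans hc⟩

theorem GBd.nonneg {U : Set (GV I)} {F : Gr I} {c : ℝ} (h : GBd U F c) : 0 ≤ c := by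
  obtain ⟨L, -, -, h3⟩ := h
  refine (List.sum_nonneg fun x hx => ?_).trans h3
  obtain ⟨p, -, rfl⟩ := List.mem_map.1 hx
  exact abs_nonneg _

theorem GBd.zero (U : Set (GV I)) : GBd U 0 0 := by
  exact ⟨[], by simp, by simp, by simp⟩

theorem GBd.one (U : Set (GV I)) : GBd U 1 1 := by
  exact ⟨[(1, [])], by simp, by simp [wedge], by simp⟩

theorem GBd.add {U : Set (GV I)} {F G : Gr I} {c d : ℝ} (h : GBd U F c) (h' : GBd U G d) :
    GBd U (F + G) (c + d) := by
  obtain ⟨L, h1, rfl, h3⟩ := h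
  obtain ⟨L', h1', rfl, h3'⟩ := h'
  refine ⟨L ++ L', fun p hp => (List.mem_append.1 hp).elim (h1 p) (h1' p), by simp, ?_⟩
  rw [List.map_append, List.sum_append]
  exact add_le_add h3 h3'

theorem GBd.smul {U : Set (GV I)} {F : Gr I} {c : ℝ} (h : GBd U F c) (a : ℝ) : GBd U (a • F) (|a| * c) := by
  obtain ⟨L, h1, rfl, h3⟩ := h
  refine ⟨L.map fun p => (a * p.1, p.2), fun p hp => ?_, ?_, ?_⟩
  · obtain ⟨q, hq, rfl⟩ := List.mem_map.1 hp
    exact h1 q hq
  · rw [List.smul_sum, List.map_map, List.map_map]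
    exact congrArg List.sum (List.map_congr_left fun p _ => smul_smul _ _ _)
  · refine le_trans (le_of_eq ?_) (mul_le_mul_of_nonneg_left h3 (abs_nonneg a))
    rw [← List.sum_map_mul_left, List.map_map]
    exact congrArg List.sum (List.map_congr_left fun p _ => abs_mul _ _)

theorem GBd.wedge_mul {U : Set (GV I)} {G : Gr I} {d : ℝ} (h : GBd U G d) {l : List (GV I)} (hl : ∀ u ∈ l, u ∈ U) :
    GBd U (wedge l * G) d := by
  obtain ⟨L, h1, rfl, h3⟩ := h
  refine ⟨L.map fun p => (p.1, l ++ p.2), fun p hp => ?_, ?_, by simpa [List.map_map, Function.comp_def] using h3⟩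
  · obtain ⟨q, hq, rfl⟩ := List.mem_map.1 hp
    exact fun u hu => (List.mem_append.1 hu).elim (hl u) (h1 q hq u)
  · rw [← List.sum_map_mul_left, List.map_map]
    exact congrArg List.sum (List.map_congr_left fun p _ => by simp [wedge])

theorem GBd.mul {U : Set (GV I)} {F G : Gr I} {c d : ℝ} (h : GBd U F c) (h' : GBd U G d) :
    GBd U (F * G) (c * d) := by
  obtain ⟨L, h1, rfl, h3⟩ := h
  refine GBd.mono ?_ subset_rfl (mul_le_mul_of_nonneg_right h3 h'.nonneg)
  clear h3
  induction L with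
  | nil => simpa using GBd.zero U
  | cons p L ih =>
    simp only [List.map_cons, List.sum_cons, add_mul, smul_mul_assoc]
    exact ((h'.wedge_mul (h1 p (by simp))).smul _).add (ih fun q hq => h1 q (by simp [hq]))

theorem GBd.abs_aug_le {U : Set (GV I)} {F : Gr I} {c : ℝ} (h : GBd U F c) : |aug F| ≤ c := by
  obtain ⟨L, -, rfl, h3⟩ := h
  refine le_trans ?_ h3
  clear h3
  induction L with
  | nil => simp
  | cons p L ih =>
    simp only [List.map_cons, List.sum_cons, map_add, map_smul, smul_eq_mul]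
    refine (abs_add_le _ _).trans (add_le_add ?_ ih)
    rw [abs_mul]
    refine mul_le_of_le_one_right (abs_nonneg _) ?_
    cases p.2 <;> simp [wedge, aug, ExteriorAlgebra.algebraMapInv]

theorem GBd.gmap {J : Type} {U : Set (GV I)} {U' : Set (GV J)} {F : Gr I} {c : ℝ} (h : GBd U F c)
    (T : GV I →ₗ[ℝ] GV J) (hT : ∀ u ∈ U, T u ∈ U') : GBd U' (gmap T F) c := by
  obtain ⟨L, h1, rfl, h3⟩ := h
  refine ⟨L.map fun p => (p.1, p.2.map T), fun p hp u hu => ?_, ?_, by simpa [List.map_map, Function.comp_def] using h3⟩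
  · obtain ⟨q, hq, rfl⟩ := List.mem_map.1 hp
    obtain ⟨v, hv, rfl⟩ := List.mem_map.1 hu
    exact hT v (h1 q hq v hv)
  · rw [map_list_sum, List.map_map, List.map_map]
    refine congrArg List.sum (List.map_congr_left fun p _ => ?_)
    simp [wedge, R165.gmap, map_list_prod, Function.comp_def]

theorem GBd.sum {U : Set (GV I)} {ι : Type} (s : Finset ι) {F : ι → Gr I} {c : ι → ℝ} (h : ∀ i ∈ s, GBd U (F i) (c i)) :
    GBd U (∑ i ∈ s, F i) (∑ i ∈ s, c i) := by
  induction s using Finset.induction_on with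
  | empty => simpa using GBd.zero U
  | insert a s ha ih =>
    rw [Finset.sum_insert ha, Finset.sum_insert ha]
    exact (h a (by simp)).add (ih fun i hi => h i (by simp [hi]))

/-- a wedge of multiples of vectors of `U` -/
theorem GBd.wedge {U : Set (GV I)} {ι : Type} (l : List ι) (p : ι → GV I) (a : ι → ℝ) (ha : ∀ i, 0 ≤ a i)
    (hp : ∀ i, ∃ v ∈ U, p i = a i • v) : GBd U (wedge (l.map p)) (l.map a).prod := by
  induction l with
  | nil => simpa [R165.wedge] using GBd.one U
  | cons i l ih =>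
    obtain ⟨v, hv, e⟩ := hp i
    have := (ih.wedge_mul (l := [v]) (by simpa using hv)).smul (a i)
    rw [abs_of_nonneg (ha i)] at this
    simpa [R165.wedge, e] using this

end Crest.Agent.R165
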