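import Crest.Agent.R165.G.Pf

/-! # R165 block G: Gram bound (owner helper53; statements FROZEN, add lemmas freely) -/

set_option autoImplicit false
noncomputable section
open Classical

namespace Crest.Agent.R165

variable {I : Type}

theorem hadamard_basis {E : Type} [NormedAddCommGroup E] [InnerProductSpace ℝ E] [FiniteDimensional ℝ E] {n : ℕ}
    (e : OrthonormalBasis (Fin n) ℝ E) (f : Fin n → E) : |e.toBasis.det f| ≤ ∏ i, ‖f i‖ := by
  have hd : Module.finrank ℝ E = Fintype.card (Fin n) := Module.finrank_eq_card_basis e.toBasis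
  let b := InnerProductSpace.gramSchmidtOrthonormalBasis hd f
  have h2 : e.toBasis.det f = e.toBasis.det b * b.toBasis.det f := by
    have := congrArg (fun g => g f) (e.toBasis.det.eq_smul_basis_det b.toBasis)
    simpa using this
  rw [← Real.norm_eq_abs, h2, norm_mul, OrthonormalBasis.det_to_matrix_orthonormalBasis, one_mul,
    InnerProductSpace.gramSchmidtOrthonormalBasis_det, norm_prod]
  refine Finset.prod_le_prod (fun i _ => norm_nonneg _) fun i _ => ?_
  refine (norm_inner_le_norm _ _).trans ?_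
  rw [b.orthonormal.1 i, one_mul]

theorem gram_hadamard_aux {E : Type} [NormedAddCommGroup E] [InnerProductSpace ℝ E] [FiniteDimensional ℝ E] {n : ℕ}
    (hd : Module.finrank ℝ E = Fintype.card (Fin n)) (α β : Fin n → E) :
    |(Matrix.of fun a b => inner ℝ (α a) (β b)).det| ≤ (∏ a, ‖α a‖) * ∏ b, ‖β b‖ := by
  let e := InnerProductSpace.gramSchmidtOrthonormalBasis hd α
  have : (Matrix.of fun a b => inner ℝ (α a) (β b)) = (e.toBasis.toMatrix α).transpose * e.toBasis.toMatrix β := by
    ext a b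
    simp only [Matrix.of_apply, Matrix.mul_apply, Matrix.transpose_apply, Module.Basis.toMatrix_apply,
      OrthonormalBasis.coe_toBasis_repr_apply, OrthonormalBasis.repr_apply_apply, ← e.sum_inner_mul_inner (α a) (β b),
      real_inner_comm (α a)]
  rw [this, Matrix.det_mul, Matrix.det_transpose, abs_mul]
  exact mul_le_mul (hadamard_basis e α) (hadamard_basis e β) (abs_nonneg _) (Finset.prod_nonneg fun _ _ => norm_nonneg _)

/-- Gram–Hadamard.  If the `α a` are linearly dependent the determinant is `0`.  Otherwise `W = span (range α)` has dimension `n`; with an orthonormal basis `e` of `W`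
the matrix is `A * Bᵀ`, `A a k = ⟪α a, e k⟫`, `B b k = ⟪β b, e k⟫` (`OrthonormalBasis.sum_inner_mul_inner`, orthogonal projection), and Hadamard's inequality
(`Crest/Agent/R192/Ext.lean: hadamard` is the complex version, proved with `gramSchmidtOrthonormalBasis`; or `Orientation.abs_volumeForm_apply_le`) plus Bessel.
Shortcut: `InnerProductSpace.gramSchmidtNormed`-free version: pad `κ`, or induct with orthogonal projections; any route. -/
theorem gram_hadamard {κ : Type} [Fintype κ] {n : ℕ} (α β : Fin n → EuclideanSpace ℝ κ) :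
    |(Matrix.of fun a b => inner ℝ (α a) (β b)).det| ≤ (∏ a, ‖α a‖) * ∏ b, ‖β b‖ := by
  by_cases h : LinearIndependent ℝ α
  · let W := Submodule.span ℝ (Set.range α)
    have := gram_hadamard_aux (E := W) (finrank_span_eq_card h) (fun a => ⟨α a, Submodule.subset_span ⟨a, rfl⟩⟩)
      fun b => W.orthogonalProjectionOnto (β b)
    simp only [Submodule.inner_orthogonalProjectionOnto_eq_of_mem_left] at this
    refine this.trans (mul_le_mul_of_nonneg_left (Finset.prod_le_prod (fun _ _ => norm_nonneg _) fun b _ =>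
      W.norm_orthogonalProjectionOnto_apply_le _) (Finset.prod_nonneg fun _ _ => norm_nonneg _))
  · obtain ⟨c, hc, i, hi⟩ := Fintype.not_linearIndependent_iff.1 h
    rw [Matrix.exists_vecMul_eq_zero_iff.1 ⟨c, fun h0 => hi (congrFun h0 i), funext fun b => ?_⟩, abs_zero]
    · positivity
    · have := congrArg (fun v => inner ℝ v (β b)) hc
      simpa [Matrix.vecMul, dotProduct, sum_inner, real_inner_smul_left] using this

/-- A Gram representation of `g` on the set `U` with constant `δ`: Euclidean vectors `X u`, `Y u` of norm `≤ δ`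
with `2 · bil g u v = ⟪X u, Y v⟫ - ⟪X v, Y u⟫` (only finitely many `u` at a time). -/
def Gram (U : Set (GV I)) (g : I → I → ℝ) (δ : ℝ) : Prop :=
  ∀ s : Finset (GV I), (↑s : Set (GV I)) ⊆ U → ∃ (κ : Type) (_ : Fintype κ) (X Y : GV I → κ → ℝ),
    (∀ u ∈ s, ∀ v ∈ s, 2 * bil g u v = ∑ k, (X u k * Y v k - X v k * Y u k)) ∧
    ∀ u ∈ s, ∑ k, X u k ^ 2 ≤ δ ^ 2 ∧ ∑ k, Y u k ^ 2 ≤ δ ^ 2

/-- **Gram bound**: `l = List.ofFn l.get`, `gauss_wedge_sq'`, `bil g u v = ⟪α u, β v⟫` with `α = (X, -Y)/√2`, `β = (Y, X)/√2` on `κ ⊕ κ`, `gram_hadamard` -/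
theorem gram_bound {U : Set (GV I)} {g : I → I → ℝ} {δ : ℝ} (hδ : 0 ≤ δ) (h : Gram U g δ)
    (l : List (GV I)) (hl : ∀ u ∈ l, u ∈ U) : |gauss g (wedge l)| ≤ δ ^ l.length := by
  obtain ⟨κ, _, X, Y, h1, h2⟩ := h l.toFinset fun u hu => hl u (List.mem_toFinset.1 hu)
  have hm : ∀ a : Fin l.length, l.get a ∈ l.toFinset := fun a => List.mem_toFinset.2 (List.get_mem l a)
  have e := gauss_wedge_sq' g l.length l.get
  rw [List.ofFn_get] at e
  let α : Fin l.length → EuclideanSpace ℝ (κ ⊕ κ) := fun a =>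
    WithLp.toLp 2 (Sum.elim (X (l.get a)) fun k => -Y (l.get a) k)
  let β : Fin l.length → EuclideanSpace ℝ (κ ⊕ κ) := fun a =>
    (1 / 2 : ℝ) • WithLp.toLp 2 (Sum.elim (Y (l.get a)) (X (l.get a)))
  have e2 : (Matrix.of fun a b => bil g (l.get a) (l.get b)) = Matrix.of fun a b => inner ℝ (α a) (β b) := by
    ext a b
    have := h1 _ (hm a) _ (hm b)
    simp only [Finset.sum_sub_distrib] at this
    rw [Matrix.of_apply, Matrix.of_apply, real_inner_smul_right]
    simp only [α, PiLp.inner_apply, Fintype.sum_sum_type, Sum.elim_inl,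
      Sum.elim_inr, RCLike.inner_apply, conj_trivial, mul_neg, Finset.sum_neg_distrib, mul_comm (Y _ _)]
    linarith
  have n1 : ∀ a, ‖α a‖ * ‖β a‖ ≤ δ ^ 2 := fun a => by
    have a1 : ‖α a‖ ^ 2 ≤ 2 * δ ^ 2 := by
      simp only [α, EuclideanSpace.norm_sq_eq, Fintype.sum_sum_type, Sum.elim_inl, Sum.elim_inr, Real.norm_eq_abs, sq_abs,
        neg_sq]
      linarith [h2 _ (hm a)]
    have a2 : (2 * ‖β a‖) ^ 2 ≤ 2 * δ ^ 2 := by
      have : 2 * ‖β a‖ = ‖(WithLp.toLp 2 (Sum.elim (Y (l.get a)) (X (l.get a))) : EuclideanSpace ℝ (κ ⊕ κ))‖ := by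
        simp only [β, norm_smul]
        rw [Real.norm_of_nonneg (by norm_num)]
        ring
      rw [this]
      simp only [EuclideanSpace.norm_sq_eq, Fintype.sum_sum_type, Sum.elim_inl, Sum.elim_inr, Real.norm_eq_abs, sq_abs]
      linarith [h2 _ (hm a)]
    nlinarith [sq_nonneg (‖α a‖ - 2 * ‖β a‖)]
  refine abs_le_of_sq_le_sq ?_ (by positivity)
  rw [e, e2]
  refine (le_abs_self _).trans ((gram_hadamard α β).trans ?_)
  rw [← Finset.prod_mul_distrib]
  refine (Finset.prod_le_prod (fun _ _ => by positivity) fun a _ => n1 a).trans_eq ?_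
  rw [Finset.prod_const, Finset.card_univ, Fintype.card_fin, ← pow_mul, ← pow_mul, mul_comm]

end Crest.Agent.R165
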