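import Crest.Agent.R165.G.Change
import Crest.Agent.R165.G.Gauge
import Crest.Agent.R165.G.Gram

/-! # R165 block G: Grassmann toolkit; the public statements are in `G/{Basic,Change,Pf,Gauge,Gram,Main}.lean` (owner helper53; statements FROZEN, add lemmas freely) -/

set_option autoImplicit false
noncomputable section
open Classical

namespace Crest.Agent.R165

variable {I : Type}

theorem iota_mul_wedge (u : GV I) (l : List (GV I)) :
    ExteriorAlgebra.ι ℝ u * wedge l = (-1 : ℝ) ^ l.length • (wedge l * ExteriorAlgebra.ι ℝ u) := by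
  induction l with
  | nil => simp [wedge_nil]
  | cons v l ih =>
    rw [wedge_cons, ← mul_assoc, iota_swap u v, neg_mul, mul_assoc, ih, List.length_cons, pow_succ, mul_smul_comm, mul_assoc]
    simp

theorem gmap_wedge {J : Type} (T : GV I →ₗ[ℝ] GV J) (l : List (GV I)) : gmap T (wedge l) = wedge (l.map T) := by
  induction l with
  | nil => simp [wedge_nil]
  | cons v l ih => rw [wedge_cons, map_mul, gmap_iota, ih, List.map_cons, wedge_cons]

theorem wedge_smul {ι : Type} (l : List ι) (d : ι → ℝ) (v : ι → GV I) :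
    wedge (l.map fun i => d i • v i) = (l.map d).prod • wedge (l.map v) := by
  induction l with
  | nil => simp
  | cons i l ih => simp only [List.map_cons, wedge_cons, ih, List.prod_cons, map_smul, smul_mul_smul_comm]

/-- the ordered wedge over a set of positions -/
def wS {n : ℕ} (f : Fin n → GV I) (t : Finset (Fin n)) : Gr I := wedge ((t.sort (· ≤ ·)).map f)

theorem wS_insert {n : ℕ} (f : Fin n → GV I) {a : Fin n} {t : Finset (Fin n)} (h : ∀ x ∈ t, a < x) :
    wS f (insert a t) = ExteriorAlgebra.ι ℝ (f a) * wS f t := by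
  rw [wS, Finset.sort_insert _ (fun b hb => (h b hb).le) (fun ha => lt_irrefl _ (h a ha)), List.map_cons, wedge_cons, wS]

/-- expansion of a wedge of sums -/
theorem wS_add {n : ℕ} (A B : Fin n → GV I) (s : Finset (Fin n)) : ∃ ε : Finset (Fin n) → ℝ, (∀ t, |ε t| ≤ 1) ∧
    wS (A + B) s = ∑ t ∈ s.powerset, ε t • (wS A t * wS B (s \ t)) := by
  induction s using Finset.induction_on_min with
  | empty => exact ⟨fun _ => 1, by simp, by simp [wS, wedge_nil]⟩
  | insert a s h ih =>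
    obtain ⟨ε, h1, h2⟩ := ih
    have ha : a ∉ s := fun ha => lt_irrefl _ (h a ha)
    refine ⟨fun t => if a ∈ t then ε (t.erase a) else (-1) ^ t.card * ε t, fun t => ?_, ?_⟩
    · dsimp only
      split_ifs
      · exact h1 _
      · simpa [abs_mul] using h1 t
    · rw [wS_insert _ h, h2, Finset.sum_powerset_insert ha, Pi.add_apply, map_add, add_mul, add_comm, Finset.mul_sum,
        Finset.mul_sum]
      congr 1 <;> refine Finset.sum_congr rfl fun t ht => ?_
      all_goals
        have ht := Finset.mem_powerset.1 ht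
        have hat : a ∉ t := fun h' => ha (ht h')
        beta_reduce
      · rw [if_neg hat, Finset.insert_sdiff_of_notMem _ hat, wS_insert _ fun x hx => h x (Finset.mem_sdiff.1 hx).1,
          mul_smul_comm, ← mul_assoc, ← mul_assoc, wS, iota_mul_wedge, smul_mul_assoc, smul_smul, List.length_map,
          Finset.length_sort, mul_comm (ε t)]
      · rw [if_pos (Finset.mem_insert_self a t), Finset.erase_insert hat, wS_insert _ fun x hx => h x (ht hx),
          Finset.insert_sdiff_insert, Finset.sdiff_insert_of_notMem ha, mul_smul_comm, mul_assoc]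

theorem prod_sort {n : ℕ} (a : Fin n → ℝ) (t : Finset (Fin n)) : ((t.sort (· ≤ ·)).map a).prod = ∏ i ∈ t, a i := by
  rw [← Finset.prod_map_toList]
  exact ((Finset.sort_perm_toList t _).map a).prod_eq

theorem gmap_mem_supA {J : Type} (φ : I → J) (x : Gr I) :
    gmap (Finsupp.lmapDomain ℝ ℝ φ) x ∈ supA (Set.range φ) := by
  refine supA_induction ?_ (fun x y hx hy => ?_) (fun c x hx => ?_) (fun i _ x _ h => ?_) (mem_supA_univ x)
  · rw [map_one]; exact Subalgebra.one_mem _
  · rw [map_add]; exact Subalgebra.add_mem _ hx hy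
  · rw [map_smul]; exact Subalgebra.smul_mem _ hx c
  · rw [map_mul, th, gmap_iota, Finsupp.lmapDomain_apply, Finsupp.mapDomain_single]
    exact Subalgebra.mul_mem _ (th_mem_supA ⟨i, rfl⟩) h

theorem gmap_comp {J K : Type} (T : GV I →ₗ[ℝ] GV J) (T' : GV J →ₗ[ℝ] GV K) (x : Gr I) :
    gmap T' (gmap T x) = gmap (T' ∘ₗ T) x := by
  induction x using CliffordAlgebra.left_induction with
  | algebraMap r => simp only [AlgHom.commutes]
  | add _ _ hx hy => simp only [map_add, hx, hy]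
  | ι_mul x m hx => simp only [map_mul, gmap_iota, hx, LinearMap.comp_apply]

theorem gmap_zero {J : Type} (x : Gr I) : gmap (0 : GV I →ₗ[ℝ] GV J) x = algebraMap ℝ _ (aug x) := by
  induction x using CliffordAlgebra.left_induction with
  | algebraMap r => simp only [AlgHom.commutes]; rfl
  | add _ _ hx hy => simp only [map_add, hx, hy]
  | ι_mul x m hx => simp only [map_mul, gmap_iota, aug_iota, LinearMap.zero_apply, map_zero, zero_mul]

/-- Doubling the variables: `mu g = (id ⊗ gauss g) ∘ Δ`. -/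
theorem exists_double (g : I → I → ℝ) : ∃ (T₁ T₂ : GV I →ₗ[ℝ] GV (I ⊕ I)) (Ψ : Gr (I ⊕ I) →ₗ[ℝ] Gr I),
    (∀ x, Ψ (gmap (T₁ + T₂) x) = mu g x) ∧ ∀ x y, Ψ (gmap T₁ x * gmap T₂ y) = gauss g y • x := by
  let g' : I ⊕ I → I ⊕ I → ℝ := Sum.elim 0 fun i => Sum.elim 0 (g i)
  let π : GV (I ⊕ I) →ₗ[ℝ] GV I := Finsupp.linearCombination ℝ (Sum.elim (fun i => Finsupp.single i 1) 0)
  let T₁ : GV I →ₗ[ℝ] GV (I ⊕ I) := Finsupp.lmapDomain ℝ ℝ Sum.inl
  let T₂ : GV I →ₗ[ℝ] GV (I ⊕ I) := Finsupp.lmapDomain ℝ ℝ Sum.inr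
  have p1 : π ∘ₗ T₁ = LinearMap.id := by
    ext i : 2
    simp [π, T₁]
  have p2 : π ∘ₗ T₂ = 0 := by
    ext i : 2
    simp [π, T₂]
  refine ⟨T₁, T₂, (gmap π).toLinearMap ∘ₗ mu g', fun x => ?_, fun x y => ?_⟩
  · rw [LinearMap.comp_apply, ← gmap_mu (g := g) (T₁ + T₂) (fun i _ j _ => by simp [T₁, T₂, g', bil_single])
      (mem_supA_univ x), AlgHom.toLinearMap_apply, gmap_comp, LinearMap.comp_add, p1, p2, add_zero, gmap_id]
  · rw [LinearMap.comp_apply, mu_mul (by rintro _ ⟨i, rfl⟩ _ ⟨j, rfl⟩; simp [g']) (gmap_mem_supA Sum.inl x)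
      (gmap_mem_supA Sum.inr y), ← gmap_mu (g := 0) T₁ (fun i _ j _ => by simp [T₁, g', bil_single]) (mem_supA_univ x),
      ← gmap_mu (g := g) T₂ (fun i _ j _ => by simp [T₂, g', bil_single]) (mem_supA_univ y), AlgHom.toLinearMap_apply,
      map_mul, gmap_comp, gmap_comp, p1, p2, gmap_id, gmap_zero, mu_zero, ← Algebra.commutes, ← Algebra.smul_def,
      gauss_apply]

/-- **Gaussian convolution contracts the gauge.** Every vector `u` of the list has a Gram weight `d u`
(`u ∈ d u • U₀`, Gram constant 1 on `U₀`), and splits as `u = p u + r u` with `p u ∈ a u • U'`, `r u ∈ b u • U'`.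
Then `mu g (wedge l)` is the sum over the ways to label every position by `ξ` (contracted), `p`, `r`; only
labelings whose `p`-vectors have non-zero wedge contribute.  `ok t` is any predicate on the set of `p`-positions
that holds whenever the wedge of the `p`-vectors is non-zero. -/
theorem GBd_mu_wedge {U₀ U' : Set (GV I)} {g : I → I → ℝ} (h : Gram U₀ g 1) (n : ℕ) (u p : Fin n → GV I)
    (a b d : Fin n → ℝ) (ha : ∀ i, 0 ≤ a i) (hb : ∀ i, 0 ≤ b i) (hd : ∀ i, 0 ≤ d i)
    (hu : ∀ i, ∃ v ∈ U₀, u i = d i • v) (hp : ∀ i, ∃ v ∈ U', p i = a i • v)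
    (hr : ∀ i, ∃ v ∈ U', u i - p i = b i • v) (ok : Finset (Fin n) → Prop)
    (hok : ∀ t : Finset (Fin n), wedge ((t.sort (· ≤ ·)).map p) ≠ 0 → ok t) :
    GBd U' (mu g (wedge (List.ofFn u)))
      (∑ t ∈ Finset.univ.filter ok, (∏ i ∈ t, a i) * ∏ i ∈ tᶜ, (b i + d i)) := by
  obtain ⟨T₁, T₂, Ψ, h1, h2⟩ := exists_double g
  have gw : ∀ (T : GV I →ₗ[ℝ] GV (I ⊕ I)) (f : Fin n → GV I) t, wS (fun i => T (f i)) t = gmap T (wS f t) :=
    fun T f t => by rw [wS, wS, gmap_wedge, List.map_map]; rfl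
  obtain ⟨ε, hε, e1⟩ := wS_add (fun i => T₁ (p i)) ((fun i => T₁ (u i - p i)) + fun i => T₂ (u i)) Finset.univ
  choose ε' hε' e2 using wS_add (fun i => T₁ (u i - p i)) fun i => T₂ (u i)
  have e3 : mu g (wedge (List.ofFn u)) = ∑ t, ∑ ρ ∈ tᶜ.powerset,
      (ε t * ε' tᶜ ρ * gauss g (wS u (tᶜ \ ρ))) • (wS p t * wS (fun i => u i - p i) ρ) := by
    have : wedge (List.ofFn u) = wS u Finset.univ := by rw [wS, Fin.sort_univ, List.ofFn_eq_map]
    rw [this, ← h1, ← gw, show (fun i => (T₁ + T₂) (u i)) =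
      (fun i => T₁ (p i)) + ((fun i => T₁ (u i - p i)) + fun i => T₂ (u i)) from funext fun i => by simp; abel, e1,
      Finset.powerset_univ, map_sum]
    refine Finset.sum_congr rfl fun t _ => ?_
    rw [← Finset.compl_eq_univ_sdiff, e2, Finset.mul_sum, Finset.smul_sum, map_sum]
    refine Finset.sum_congr rfl fun ρ _ => ?_
    rw [gw, gw, gw, mul_smul_comm, ← mul_assoc, ← map_mul, map_smul, map_smul, h2, smul_smul, smul_smul]
  rw [e3, ← Finset.sum_filter_of_ne (p := ok) fun t _ ht => hok t fun h0 => ht (by simp [wS, h0])]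
  refine GBd.sum _ fun t _ => ?_
  rw [Finset.prod_add, Finset.mul_sum]
  refine GBd.sum _ fun ρ _ => ?_
  have b1 := ((GBd.wedge (t.sort (· ≤ ·)) p a ha hp).mul (GBd.wedge (ρ.sort (· ≤ ·)) _ b hb hr)).smul
    (ε t * ε' tᶜ ρ * gauss g (wS u (tᶜ \ ρ)))
  rw [prod_sort, prod_sort] at b1
  refine b1.mono subset_rfl ?_
  have b2 : |gauss g (wS u (tᶜ \ ρ))| ≤ ∏ i ∈ tᶜ \ ρ, d i := by
    choose v hv hv' using hu
    have hd' : 0 ≤ ∏ i ∈ tᶜ \ ρ, d i := Finset.prod_nonneg fun i _ => hd i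
    rw [wS, funext hv', wedge_smul, prod_sort, map_smul, smul_eq_mul, abs_mul, abs_of_nonneg hd']
    refine mul_le_of_le_one_right hd' ((gram_bound zero_le_one h _ fun w hw => ?_).trans_eq (one_pow _))
    obtain ⟨i, -, rfl⟩ := List.mem_map.1 hw
    exact hv i
  have b3 : |ε t * ε' tᶜ ρ * gauss g (wS u (tᶜ \ ρ))| ≤ ∏ i ∈ tᶜ \ ρ, d i := by
    rw [abs_mul, abs_mul]
    exact (mul_le_of_le_one_left (abs_nonneg _) (mul_le_one₀ (hε t) (abs_nonneg _) (hε' _ _))).trans b2
  have b4 : 0 ≤ (∏ i ∈ t, a i) * ∏ i ∈ ρ, b i :=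
    mul_nonneg (Finset.prod_nonneg fun i _ => ha i) (Finset.prod_nonneg fun i _ => hb i)
  exact (mul_le_mul_of_nonneg_right b3 b4).trans_eq (by ring)

end Crest.Agent.R165
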