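import Crest.Agent.R165.Gr

/-! # R165 block G: Gaussian convolution (owner helper53; statements FROZEN, add lemmas freely) -/

set_option autoImplicit false
noncomputable section
open Classical

namespace Crest.Agent.R165

variable {I : Type}

open CliffordAlgebra

/-- contraction -/
abbrev ctr (d : Module.Dual ℝ (GV I)) : Gr I →ₗ[ℝ] Gr I := contractLeft (Q := (0 : QuadraticForm ℝ (GV I))) d

theorem bil_swap (g : I → I → ℝ) (u v : GV I) : bil g v u = -bil g u v := by
  simp [bil]
  ring

theorem bil_self (g : I → I → ℝ) (u : GV I) : bil g u u = 0 := by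
  simp [bil]

theorem bil_single (g : I → I → ℝ) (i j : I) :
    bil g (Finsupp.single i 1) (Finsupp.single j 1) = (g i j - g j i) / 2 := by
  simp [bil, bil0]
  ring

theorem Antisym.bil_single {g : I → I → ℝ} (hg : Antisym g) (i j : I) :
    bil g (Finsupp.single i 1) (Finsupp.single j 1) = g i j := by
  rw [R165.bil_single, hg i j]
  ring

theorem bil_ext {B B' : LinearMap.BilinForm ℝ (GV I)}
    (h : ∀ i j, B (Finsupp.single i 1) (Finsupp.single j 1) = B' (Finsupp.single i 1) (Finsupp.single j 1)) : B = B' := by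
  ext i j
  exact h i j

theorem bil_add (g g' : I → I → ℝ) : bil (g + g') = bil g + bil g' :=
  bil_ext fun i j => by simp only [bil_single, LinearMap.add_apply, Pi.add_apply]; ring

theorem bil_smul (c : ℝ) (g : I → I → ℝ) : bil (c • g) = c • bil g :=
  bil_ext fun i j => by simp only [bil_single, LinearMap.smul_apply, Pi.smul_apply, smul_eq_mul]; ring

theorem bil_zero : bil (0 : I → I → ℝ) = 0 := by
  simpa using bil_smul 0 (0 : I → I → ℝ)

theorem iota_swap (u v : GV I) :
    ExteriorAlgebra.ι ℝ u * ExteriorAlgebra.ι ℝ v = -(ExteriorAlgebra.ι ℝ v * ExteriorAlgebra.ι ℝ u) :=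
  eq_neg_of_add_eq_zero_left (ExteriorAlgebra.ι_add_mul_swap u v)

theorem commute_iota_iota (u v : GV I) (x : Gr I) : Commute (ExteriorAlgebra.ι ℝ u * ExteriorAlgebra.ι ℝ v) x := by
  induction x using CliffordAlgebra.left_induction with
  | algebraMap r => exact Algebra.commute_algebraMap_right r _
  | add _ _ hx hy => exact hx.add_right hy
  | ι_mul x m hx =>
    refine Commute.mul_right ?_ hx
    change _ * ExteriorAlgebra.ι ℝ m = ExteriorAlgebra.ι ℝ m * _
    rw [mul_assoc, iota_swap v m, mul_neg, ← mul_assoc, iota_swap u m, neg_mul, neg_neg, mul_assoc]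

theorem commute_of_even {a : Gr I} (ha : a ∈ evenOdd (0 : QuadraticForm ℝ (GV I)) 0) (x : Gr I) : Commute a x := by
  induction a, ha using CliffordAlgebra.even_induction with
  | algebraMap r => exact Algebra.commute_algebraMap_left r _
  | add _ _ _ _ hx hy => exact hx.add_left hy
  | ι_mul_ι_mul m₁ m₂ y _ hy => exact (commute_iota_iota m₁ m₂ x).mul_left hy

/-- even elements are central -/
theorem even_comm (a : Ev I) (x : Gr I) : (a : Gr I) * x = x * a := commute_of_even a.2 x

instance : CommRing (Ev I) :=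
  { (inferInstance : Ring (Ev I)) with mul_comm := fun a b => Subtype.ext (even_comm a b) }

theorem mu_one (g : I → I → ℝ) : mu g 1 = 1 := changeForm_one _

theorem mu_algebraMap (g : I → I → ℝ) (r : ℝ) : mu g (algebraMap ℝ _ r) = algebraMap ℝ _ r := changeForm_algebraMap _ r

theorem mu_iota_mul (g : I → I → ℝ) (u : GV I) (x : Gr I) :
    mu g (ExteriorAlgebra.ι ℝ u * x) =
      ExteriorAlgebra.ι ℝ u * mu g x + CliffordAlgebra.contractLeft (bil g u) (mu g x) := by
  have := changeForm_ι_mul (neg_bil_quad g) u x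
  rw [LinearMap.neg_apply, map_neg, LinearMap.neg_apply, sub_neg_eq_add] at this
  exact this

theorem mu_ctr (g : I → I → ℝ) (d : Module.Dual ℝ (GV I)) (x : Gr I) : mu g (ctr d x) = ctr d (mu g x) :=
  changeForm_contractLeft _ d x

theorem ctr_iota_mul (d : Module.Dual ℝ (GV I)) (u : GV I) (x : Gr I) :
    ctr d (ExteriorAlgebra.ι ℝ u * x) = d u • x - ExteriorAlgebra.ι ℝ u * ctr d x := contractLeft_ι_mul d u x

theorem mu_zero (x : Gr I) : mu (0 : I → I → ℝ) x = x := by
  induction x using CliffordAlgebra.left_induction with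
  | algebraMap r => exact mu_algebraMap _ r
  | add _ _ hx hy => rw [map_add, hx, hy]
  | ι_mul x m hx => rw [mu_iota_mul, hx, bil_zero, LinearMap.zero_apply, map_zero, LinearMap.zero_apply, add_zero]

/-- semigroup -/
theorem mu_add (g g' : I → I → ℝ) (x : Gr I) : mu (g + g') x = mu g (mu g' x) := by
  induction x using CliffordAlgebra.left_induction with
  | algebraMap r => simp only [mu_algebraMap]
  | add _ _ hx hy => simp only [map_add, hx, hy]
  | ι_mul x m hx =>
    rw [mu_iota_mul, mu_iota_mul, map_add, mu_iota_mul, mu_ctr, hx, bil_add, LinearMap.add_apply, map_add,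
      LinearMap.add_apply, add_assoc]

theorem mul_eo {i j k : ZMod 2} (h : i + j = k) {x y : Gr I} (hx : x ∈ evenOdd (0 : QuadraticForm ℝ (GV I)) i)
    (hy : y ∈ evenOdd (0 : QuadraticForm ℝ (GV I)) j) : x * y ∈ evenOdd (0 : QuadraticForm ℝ (GV I)) k :=
  h ▸ SetLike.mul_mem_graded hx hy

theorem ctr_zero (x : Gr I) : ctr 0 x = 0 := by
  rw [ctr, map_zero, LinearMap.zero_apply]

theorem ctr_one (d : Module.Dual ℝ (GV I)) : ctr d 1 = 0 := contractLeft_one _ d

theorem ctr_evenOdd (d : Module.Dual ℝ (GV I)) :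
    (∀ x ∈ evenOdd (0 : QuadraticForm ℝ (GV I)) 0, ctr d x ∈ evenOdd (0 : QuadraticForm ℝ (GV I)) 1) ∧
      ∀ x ∈ evenOdd (0 : QuadraticForm ℝ (GV I)) 1, ctr d x ∈ evenOdd (0 : QuadraticForm ℝ (GV I)) 0 := by
  have step : ∀ (n : ZMod 2) (a b : GV I) (x : Gr I), x ∈ evenOdd (0 : QuadraticForm ℝ (GV I)) n →
      ctr d x ∈ evenOdd (0 : QuadraticForm ℝ (GV I)) (1 + n) →
      ctr d (ι 0 a * ι 0 b * x) ∈ evenOdd (0 : QuadraticForm ℝ (GV I)) (1 + n) := fun n a b x hx h => by
    rw [mul_assoc, ctr_iota_mul, ctr_iota_mul, mul_sub, mul_smul_comm, ← mul_assoc]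
    refine Submodule.sub_mem _ (Submodule.smul_mem _ _ (SetLike.mul_mem_graded (ι_mem_evenOdd_one _ b) hx))
      (Submodule.sub_mem _ (Submodule.smul_mem _ _ (SetLike.mul_mem_graded (ι_mem_evenOdd_one _ a) hx)) ?_)
    simpa using SetLike.mul_mem_graded (ι_mul_ι_mem_evenOdd_zero _ a b) h
  refine ⟨fun x hx => ?_, fun x hx => ?_⟩
  · induction x, hx using CliffordAlgebra.even_induction with
    | algebraMap r => rw [contractLeft_algebraMap]; exact Submodule.zero_mem _
    | add _ _ _ _ hx hy => rw [map_add]; exact Submodule.add_mem _ hx hy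
    | ι_mul_ι_mul a b y hy h => exact step 0 a b y hy h
  · induction x, hx using CliffordAlgebra.odd_induction with
    | ι v => rw [contractLeft_ι]; exact SetLike.algebraMap_mem_graded _ _
    | add _ _ _ _ hx hy => rw [map_add]; exact Submodule.add_mem _ hx hy
    | ι_mul_ι_mul a b y hy h => exact step 1 a b y hy h

theorem mu_even (g : I → I → ℝ) {x : Gr I} (hx : x ∈ evenOdd (0 : QuadraticForm ℝ (GV I)) 0) :
    mu g x ∈ evenOdd (0 : QuadraticForm ℝ (GV I)) 0 := by
  induction x, hx using CliffordAlgebra.even_induction with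
  | algebraMap r => rw [mu_algebraMap]; exact SetLike.algebraMap_mem_graded _ _
  | add _ _ _ _ hx hy => rw [map_add]; exact Submodule.add_mem _ hx hy
  | ι_mul_ι_mul a b y hy h =>
    have h1 : mu g (ExteriorAlgebra.ι ℝ b * y) ∈ evenOdd (0 : QuadraticForm ℝ (GV I)) 1 := by
      rw [mu_iota_mul]
      exact Submodule.add_mem _ (mul_eo (add_zero 1) (ι_mem_evenOdd_one _ b) h) ((ctr_evenOdd _).1 _ h)
    rw [mul_assoc, mu_iota_mul]
    exact Submodule.add_mem _ (mul_eo (by decide) (ι_mem_evenOdd_one _ a) h1) ((ctr_evenOdd _).2 _ h1)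

theorem mu_mem_even (g : I → I → ℝ) (a : Ev I) :
    mu g (a : Gr I) ∈ CliffordAlgebra.even (0 : QuadraticForm ℝ (GV I)) := mu_even g a.2

/-- Gaussian convolution on the even subalgebra -/
def muE (g : I → I → ℝ) : Ev I →ₗ[ℝ] Ev I where
  toFun a := ⟨mu g a, mu_mem_even g a⟩
  map_add' a b := Subtype.ext (by simp)
  map_smul' c a := Subtype.ext (by simp)

def augE : Ev I →ₐ[ℝ] ℝ := aug.comp (Subalgebra.val _)

@[simp] theorem aug_iota (u : GV I) : aug (ExteriorAlgebra.ι ℝ u) = 0 := by
  simp [aug, ExteriorAlgebra.algebraMapInv]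

theorem nilpotent_even {x : Gr I} (hx : x ∈ evenOdd (0 : QuadraticForm ℝ (GV I)) 0) :
    IsNilpotent (x - algebraMap ℝ _ (aug x)) := by
  have ev : ∀ {x : Gr I}, x ∈ evenOdd (0 : QuadraticForm ℝ (GV I)) 0 →
      x - algebraMap ℝ _ (aug x) ∈ evenOdd (0 : QuadraticForm ℝ (GV I)) 0 := fun hx =>
    Submodule.sub_mem _ hx (SetLike.algebraMap_mem_graded _ _)
  induction x, hx using CliffordAlgebra.even_induction with
  | algebraMap r => simp
  | add x y hx hy h h' =>
    rw [map_add, map_add, add_sub_add_comm]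
    exact (commute_of_even (ev hx) _).isNilpotent_add h h'
  | ι_mul_ι_mul a b y hy h =>
    rw [map_mul aug, map_mul aug, aug_iota, zero_mul, zero_mul, map_zero, sub_zero]
    refine (commute_iota_iota a b y).isNilpotent_mul_right ⟨2, ?_⟩
    rw [sq, ← mul_assoc, mul_assoc _ (ExteriorAlgebra.ι ℝ b), iota_swap b a, mul_neg, ← mul_assoc,
      ExteriorAlgebra.ι_sq_zero, zero_mul, neg_zero, zero_mul]

theorem aug_odd {x : Gr I} (hx : x ∈ evenOdd (0 : QuadraticForm ℝ (GV I)) 1) : aug x = 0 := by
  induction x, hx using CliffordAlgebra.odd_induction with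
  | ι v => exact aug_iota v
  | add _ _ _ _ hx hy => rw [map_add, hx, hy, add_zero]
  | ι_mul_ι_mul a b y hy h => rw [map_mul, h, mul_zero]

theorem nilpotent_of_aug (x : Gr I) (h : aug x = 0) : IsNilpotent x := by
  have : x ∈ evenOdd (0 : QuadraticForm ℝ (GV I)) 0 ⊔ evenOdd 0 1 := by
    rw [(evenOdd_isCompl _).sup_eq_top]
    trivial
  obtain ⟨e, he, o, ho, rfl⟩ := Submodule.mem_sup.1 this
  rw [map_add, aug_odd ho, add_zero] at h
  have h1 := nilpotent_even he
  have h2 := nilpotent_even (x := o * o) (mul_eo (by decide) ho ho)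
  rw [h, map_zero, sub_zero] at h1
  rw [map_mul, aug_odd ho, mul_zero, map_zero, sub_zero, ← sq] at h2
  exact (commute_of_even he o).isNilpotent_add h1 h2.of_pow

theorem th_mem_supA {S : Set I} {i : I} (hi : i ∈ S) : th i ∈ supA S := Algebra.subset_adjoin ⟨i, hi, rfl⟩

theorem supA_mono {S T : Set I} (h : S ⊆ T) : supA S ≤ supA T := Algebra.adjoin_mono (Set.image_mono h)

/-- left induction in `supA S` -/
@[elab_as_elim]
theorem supA_induction {S : Set I} {P : Gr I → Prop} (one : P 1) (add : ∀ x y, P x → P y → P (x + y))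
    (smul : ∀ (c : ℝ) x, P x → P (c • x)) (mul : ∀ i ∈ S, ∀ x ∈ supA S, P x → P (th i * x)) {x : Gr I} (hx : x ∈ supA S) :
    P x := by
  have h1 : x ∈ Submodule.span ℝ (Submonoid.closure (th '' S) : Set (Gr I)) := by
    rw [← Algebra.adjoin_eq_span]
    exact hx
  clear hx
  induction h1 using Submodule.span_induction with
  | mem x hx =>
    induction hx using Submonoid.closure_induction_left with
    | one => exact one
    | mul_left y hy z hz h =>
      obtain ⟨i, hi, rfl⟩ := hy
      exact mul i hi z ((Submonoid.closure_le (S := (supA S).toSubmonoid)).2 Algebra.subset_adjoin hz) h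
  | zero => simpa using smul 0 1 one
  | add x y _ _ hx hy => exact add x y hx hy
  | smul c x _ hx => exact smul c x hx

theorem iota_mem_supA {S : Set I} {u : GV I} (hu : ↑u.support ⊆ S) : ExteriorAlgebra.ι ℝ u ∈ supA S := by
  rw [← u.sum_single, Finsupp.sum, map_sum]
  refine Subalgebra.sum_mem _ fun i hi => ?_
  rw [← mul_one (u i), ← smul_eq_mul, ← Finsupp.smul_single, map_smul]
  exact Subalgebra.smul_mem _ (th_mem_supA (hu hi)) _

theorem exists_supA (x : Gr I) : ∃ s : Finset I, x ∈ supA (s : Set I) := by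
  induction x using CliffordAlgebra.left_induction with
  | algebraMap r => exact ⟨∅, Subalgebra.algebraMap_mem _ r⟩
  | add _ _ hx hy =>
    obtain ⟨s, hs⟩ := hx
    obtain ⟨t, ht⟩ := hy
    exact ⟨s ∪ t, Subalgebra.add_mem _ (supA_mono (by simp) hs) (supA_mono (by simp) ht)⟩
  | ι_mul x m hx =>
    obtain ⟨s, hs⟩ := hx
    exact ⟨m.support ∪ s, Subalgebra.mul_mem _ (iota_mem_supA (by simp)) (supA_mono (by simp) hs)⟩

theorem mem_supA_univ (x : Gr I) : x ∈ supA (Set.univ : Set I) :=
  (exists_supA x).elim fun _ h => supA_mono (Set.subset_univ _) h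

theorem ctr_mem_supA (d : Module.Dual ℝ (GV I)) {S : Set I} {x : Gr I} (hx : x ∈ supA S) : ctr d x ∈ supA S := by
  refine supA_induction ?_ (fun x y hx hy => ?_) (fun c x hx => ?_) (fun i hi x hx h => ?_) hx
  · rw [contractLeft_one]; exact Subalgebra.zero_mem _
  · rw [map_add]; exact Subalgebra.add_mem _ hx hy
  · rw [map_smul]; exact Subalgebra.smul_mem _ hx c
  · rw [th, ctr_iota_mul]
    exact Subalgebra.sub_mem _ (Subalgebra.smul_mem _ hx _) (Subalgebra.mul_mem _ (th_mem_supA hi) h)

theorem mu_mem_supA (g : I → I → ℝ) {S : Set I} {x : Gr I} (hx : x ∈ supA S) : mu g x ∈ supA S := by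
  refine supA_induction ?_ (fun x y hx hy => ?_) (fun c x hx => ?_) (fun i hi x hx h => ?_) hx
  · rw [mu_one]; exact Subalgebra.one_mem _
  · rw [map_add]; exact Subalgebra.add_mem _ hx hy
  · rw [map_smul]; exact Subalgebra.smul_mem _ hx c
  · rw [th, mu_iota_mul]
    exact Subalgebra.add_mem _ (Subalgebra.mul_mem _ (th_mem_supA hi) h) (ctr_mem_supA _ h)

@[simp] theorem gmap_iota {J : Type} (T : GV I →ₗ[ℝ] GV J) (u : GV I) :
    gmap T (ExteriorAlgebra.ι ℝ u) = ExteriorAlgebra.ι ℝ (T u) := ExteriorAlgebra.map_apply_ι T u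

theorem gmap_id (x : Gr I) : gmap LinearMap.id x = x := by
  rw [gmap, ExteriorAlgebra.map_id]
  rfl

theorem gmap_ctr {J : Type} (T : GV I →ₗ[ℝ] GV J) {d : Module.Dual ℝ (GV I)} {d' : Module.Dual ℝ (GV J)} {S : Set I}
    (h : ∀ j ∈ S, d' (T (Finsupp.single j 1)) = d (Finsupp.single j 1)) {x : Gr I} (hx : x ∈ supA S) :
    gmap T (ctr d x) = ctr d' (gmap T x) := by
  refine supA_induction ?_ (fun x y hx hy => ?_) (fun c x hx => ?_) (fun i hi x hx ih => ?_) hx
  · rw [map_one (gmap T), ctr_one, ctr_one, map_zero]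
  · simp only [map_add, hx, hy]
  · simp only [map_smul, hx]
  · rw [th, ctr_iota_mul, map_sub, map_smul, map_mul, map_mul, gmap_iota, ctr_iota_mul, ih, h i hi]

theorem ctr_congr {d d' : Module.Dual ℝ (GV I)} {S : Set I}
    (h : ∀ j ∈ S, d (Finsupp.single j 1) = d' (Finsupp.single j 1)) {x : Gr I} (hx : x ∈ supA S) : ctr d x = ctr d' x := by
  simpa only [gmap_id] using gmap_ctr LinearMap.id (d := d) (d' := d') (fun j hj => (h j hj).symm) hx

/-- equivariance -/
theorem gmap_mu {J : Type} (T : GV I →ₗ[ℝ] GV J) {g : I → I → ℝ} {g' : J → J → ℝ} {S : Set I}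
    (h : ∀ i ∈ S, ∀ j ∈ S, bil g' (T (Finsupp.single i 1)) (T (Finsupp.single j 1)) =
      bil g (Finsupp.single i 1) (Finsupp.single j 1))
    {x : Gr I} (hx : x ∈ supA S) : gmap T (mu g x) = mu g' (gmap T x) := by
  refine supA_induction ?_ (fun x y hx hy => ?_) (fun c x hx => ?_) (fun i hi x hx ih => ?_) hx
  · simp only [map_one, mu_one]
  · simp only [map_add, hx, hy]
  · simp only [map_smul, hx]
  · rw [th, mu_iota_mul, map_add, map_mul, map_mul, gmap_iota, mu_iota_mul, gmap_ctr T (h i hi) (mu_mem_supA g hx), ih]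

/-- `mu g` on `supA S` depends only on `g` on `S × S` -/
theorem mu_congr {g g' : I → I → ℝ} {S : Set I} (h : ∀ i ∈ S, ∀ j ∈ S, g i j = g' i j)
    {x : Gr I} (hx : x ∈ supA S) : mu g x = mu g' x := by
  simpa only [gmap_id] using gmap_mu LinearMap.id (g := g) (g' := g') (fun i hi j hj => by
    simp only [LinearMap.id_apply, bil_single, h i hi j hj, h j hj i hi]) hx

theorem ctr_mul_of_zero {d : Module.Dual ℝ (GV I)} {y : Gr I} (hy : ctr d y = 0) (x : Gr I) :
    ctr d (x * y) = ctr d x * y := by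
  induction x using CliffordAlgebra.left_induction with
  | algebraMap r => rw [contractLeft_algebraMap_mul, hy, contractLeft_algebraMap, mul_zero, zero_mul]
  | add _ _ hx hy => simp only [add_mul, map_add, hx, hy]
  | ι_mul x m hx => rw [mul_assoc, ctr_iota_mul, ctr_iota_mul, hx, sub_mul, smul_mul_assoc, mul_assoc]

/-- finite-range factorisation -/
theorem mu_mul {g : I → I → ℝ} {S T : Set I} (h : ∀ i ∈ S, ∀ j ∈ T, g i j = 0 ∧ g j i = 0)
    {x y : Gr I} (hx : x ∈ supA S) (hy : y ∈ supA T) : mu g (x * y) = mu g x * mu g y := by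
  refine supA_induction ?_ (fun x y hx hy => ?_) (fun c x hx => ?_) (fun i hi x hx ih => ?_) hx
  · rw [mu_one, one_mul, one_mul]
  · simp only [add_mul, map_add, hx, hy]
  · simp only [smul_mul_assoc, map_smul, hx]
  · rw [th, mul_assoc, mu_iota_mul, mu_iota_mul, ih, add_mul, mul_assoc, ctr_mul_of_zero]
    rw [ctr_congr (d' := 0) (fun j hj => by simp [bil_single, h i hi j hj]) (mu_mem_supA g hy), ctr_zero]

theorem gauss_apply (g : I → I → ℝ) (x : Gr I) : gauss g x = aug (mu g x) := rfl

theorem gauss_one (g : I → I → ℝ) : gauss g 1 = 1 := by rw [gauss_apply, mu_one, map_one]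

/-- integration by parts -/
theorem gauss_iota_mul (g : I → I → ℝ) (u : GV I) (x : Gr I) :
    gauss g (ExteriorAlgebra.ι ℝ u * x) = gauss g (CliffordAlgebra.contractLeft (bil g u) x) := by
  rw [gauss_apply, gauss_apply, mu_iota_mul, map_add, map_mul, aug_iota, zero_mul, zero_add, mu_ctr]

theorem gauss_th_th {g : I → I → ℝ} (hg : Antisym g) (i j : I) : gauss g (th i * th j) = g i j := by
  rw [th, gauss_iota_mul, th, contractLeft_ι, gauss_apply, mu_algebraMap, AlgHom.commutes, hg.bil_single]
  rfl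

/-- expansion of a contraction in the partial derivatives -/
theorem ctr_eq_sum (d : Module.Dual ℝ (GV I)) (s : Finset I) {x : Gr I} (hx : x ∈ supA (s : Set I)) :
    ctr d x = ∑ j ∈ s, d (Finsupp.single j 1) • ctr (Finsupp.lapply j) x := by
  rw [ctr_congr (d' := ∑ j ∈ s, d (Finsupp.single j 1) • Finsupp.lapply j) (fun j hj => ?_) hx]
  · simp only [ctr, map_sum, map_smul, LinearMap.sum_apply, LinearMap.smul_apply]
  · simp [Finsupp.single_apply, Finset.mem_coe.1 hj]

/-- `gauss g x` is a polynomial in the entries of `g` -/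
theorem gauss_tendsto {κ : Type} {l : Filter κ} {g : κ → I → I → ℝ} {g₀ : I → I → ℝ}
    (h : ∀ i j, Filter.Tendsto (fun k => g k i j) l (nhds (g₀ i j))) (x : Gr I) :
    Filter.Tendsto (fun k => gauss (g k) x) l (nhds (gauss g₀ x)) := by
  obtain ⟨s, hs⟩ := exists_supA x
  suffices H : ∀ φ : Gr I →ₗ[ℝ] ℝ, Filter.Tendsto (fun k => φ (mu (g k) x)) l (nhds (φ (mu g₀ x))) from H aug.toLinearMap
  refine supA_induction (fun φ => ?_) (fun x y hx hy φ => ?_) (fun c x hx φ => ?_) (fun i hi x hx ih φ => ?_) hs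
  · simp only [mu_one, tendsto_const_nhds]
  · simpa only [map_add] using (hx φ).add (hy φ)
  · simpa only [map_smul] using (hx φ).const_smul c
  · have e : ∀ g : I → I → ℝ, φ (mu g (th i * x)) = φ (th i * mu g x) +
        ∑ j ∈ s, ((g i j - g j i) / 2) • φ (ctr (Finsupp.lapply j) (mu g x)) := fun g => by
      rw [th, mu_iota_mul, map_add, ctr_eq_sum _ s (mu_mem_supA _ hx), map_sum]
      simp only [map_smul, bil_single]
    simp only [e]
    exact (ih (φ ∘ₗ LinearMap.mulLeft ℝ _)).add (tendsto_finsetSum _ fun j _ =>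
      (((h i j).sub (h j i)).div_const 2).smul (ih (φ ∘ₗ ctr (Finsupp.lapply j))))

theorem wedge_nil : wedge ([] : List (GV I)) = 1 := rfl

theorem wedge_cons (u : GV I) (l : List (GV I)) : wedge (u :: l) = ExteriorAlgebra.ι ℝ u * wedge l := by
  simp [wedge]

theorem wedge_append (l l' : List (GV I)) : wedge (l ++ l') = wedge l * wedge l' := by
  simp [wedge]

/-- homogeneous elements -/
def homog (n : ℕ) : Submodule ℝ (Gr I) := Submodule.span ℝ {x | ∃ l : List (GV I), l.length = n ∧ x = wedge l}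

theorem iota_mul_homog (u : GV I) {n : ℕ} {x : Gr I} (hx : x ∈ homog n) : ExteriorAlgebra.ι ℝ u * x ∈ homog (n + 1) := by
  induction hx using Submodule.span_induction with
  | mem x hx =>
    obtain ⟨l, hl, rfl⟩ := hx
    exact Submodule.subset_span ⟨u :: l, by simp [hl], (wedge_cons u l).symm⟩
  | zero => simp
  | add x y _ _ hx hy => rw [mul_add]; exact Submodule.add_mem _ hx hy
  | smul c x _ hx => rw [mul_smul_comm]; exact Submodule.smul_mem _ c hx

theorem ctr_wedge (d : Module.Dual ℝ (GV I)) (u : GV I) (l : List (GV I)) : ctr d (wedge (u :: l)) ∈ homog l.length := by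
  induction l generalizing u with
  | nil =>
    rw [wedge_cons, ctr_iota_mul, wedge_nil, contractLeft_one, mul_zero, sub_zero]
    exact Submodule.smul_mem _ _ (Submodule.subset_span ⟨[], rfl, rfl⟩)
  | cons v l ih =>
    rw [wedge_cons, ctr_iota_mul]
    exact Submodule.sub_mem _ (Submodule.smul_mem _ _ (Submodule.subset_span ⟨_, rfl, rfl⟩)) (iota_mul_homog u (ih v))

/-- scaling of a homogeneous element -/
theorem gauss_smul_wedge (g : I → I → ℝ) (c : ℝ) (l : List (GV I)) (k : ℕ) (hl : l.length = 2 * k) :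
    gauss (c • g) (wedge l) = c ^ k * gauss g (wedge l) := by
  suffices H : ∀ x ∈ homog (2 * k), gauss (c • g) x = c ^ k * gauss g x from H _ (Submodule.subset_span ⟨l, hl, rfl⟩)
  clear hl l
  induction k with
  | zero =>
    intro x hx
    induction hx using Submodule.span_induction with
    | mem x hx =>
      obtain ⟨l, hl, rfl⟩ := hx
      obtain rfl := List.length_eq_zero_iff.1 hl
      simp [wedge_nil, gauss_one]
    | zero => simp
    | add x y _ _ hx hy => rw [map_add, map_add, hx, hy, mul_add]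
    | smul a x _ hx => rw [map_smul, map_smul, hx, smul_eq_mul, smul_eq_mul, mul_left_comm]
  | succ k ih =>
    intro x hx
    induction hx using Submodule.span_induction with
    | mem x hx =>
      obtain ⟨l, hl, rfl⟩ := hx
      match l, hl with
      | u :: v :: l, hl =>
        have h1 := ctr_wedge (bil g u) v l
        rw [show l.length = 2 * k by simp at hl; omega] at h1
        rw [wedge_cons, gauss_iota_mul, gauss_iota_mul, bil_smul, LinearMap.smul_apply, map_smul, LinearMap.smul_apply,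
          map_smul, ih _ h1, smul_eq_mul, pow_succ']
        ring
    | zero => simp
    | add x y _ _ hx hy => rw [map_add, map_add, hx, hy, mul_add]
    | smul a x _ hx => rw [map_smul, map_smul, hx, smul_eq_mul, smul_eq_mul, mul_left_comm]

end Crest.Agent.R165
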