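import Crest.Agent.R165.G.Basic

/-! # R165 block G: change of measure (owner helper53; statements FROZEN, add lemmas freely) -/

set_option autoImplicit false
noncomputable section
open Classical

namespace Crest.Agent.R165

variable {I : Type}

open CliffordAlgebra

theorem exp_real {Q : Gr I} {k : ℕ} (h : Q ^ k = 0) :
    IsNilpotent.exp Q = ∑ i ∈ Finset.range k, (i.factorial : ℝ)⁻¹ • Q ^ i := by
  rw [IsNilpotent.exp_eq_sum h]
  refine Finset.sum_congr rfl fun i _ => ?_
  rw [← Rat.cast_smul_eq_qsmul ℝ]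
  simp

theorem quad_even (s : Finset I) (q : I → I → ℝ) : quad s q ∈ evenOdd (0 : QuadraticForm ℝ (GV I)) 0 :=
  Submodule.smul_mem _ _ (Submodule.sum_mem _ fun _ _ => Submodule.sum_mem _ fun _ _ =>
    Submodule.smul_mem _ _ (ι_mul_ι_mem_evenOdd_zero _ _ _))

theorem quad_mem_supA (s : Finset I) (q : I → I → ℝ) : quad s q ∈ supA (s : Set I) :=
  Subalgebra.smul_mem _ (Subalgebra.sum_mem _ fun _ hi => Subalgebra.sum_mem _ fun _ hj =>
    Subalgebra.smul_mem _ (Subalgebra.mul_mem _ (th_mem_supA hi) (th_mem_supA hj)) _) _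

theorem aug_quad (s : Finset I) (q : I → I → ℝ) : aug (quad s q) = 0 := by
  simp [quad, th]

theorem quad_nilpotent (s : Finset I) (q : I → I → ℝ) : IsNilpotent (quad s q) := nilpotent_of_aug _ (aug_quad s q)

theorem quad_smul (s : Finset I) (c : ℝ) (q : I → I → ℝ) : quad s (c • q) = c • quad s q := by
  simp only [quad, Pi.smul_apply, smul_eq_mul, mul_smul, ← Finset.smul_sum]
  rw [smul_comm]

theorem exp_mem {Q : Gr I} (h : IsNilpotent Q) {A : Subalgebra ℝ (Gr I)} (hQ : Q ∈ A) : IsNilpotent.exp Q ∈ A := by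
  obtain ⟨k, hk⟩ := h
  rw [exp_real hk]
  exact Subalgebra.sum_mem _ fun i _ => Subalgebra.smul_mem _ (Subalgebra.pow_mem _ hQ i) _

theorem ctr_even_mul (d : Module.Dual ℝ (GV I)) {a : Gr I} (ha : a ∈ evenOdd (0 : QuadraticForm ℝ (GV I)) 0) (x : Gr I) :
    ctr d (a * x) = ctr d a * x + a * ctr d x := by
  induction a, ha using CliffordAlgebra.even_induction with
  | algebraMap r => rw [contractLeft_algebraMap_mul, contractLeft_algebraMap, zero_mul, zero_add]
  | add _ _ _ _ hx hy => simp only [add_mul, map_add, hx, hy]; abel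
  | ι_mul_ι_mul m₁ m₂ y _ hy =>
    simp only [mul_assoc, ctr_iota_mul, hy, mul_sub, sub_mul, mul_add, smul_mul_assoc, mul_smul_comm]
    abel

theorem ctr_pow (d : Module.Dual ℝ (GV I)) {Q : Gr I} (hQ : Q ∈ evenOdd (0 : QuadraticForm ℝ (GV I)) 0) (n : ℕ) :
    ctr d (Q ^ (n + 1)) = ((n : ℝ) + 1) • (ctr d Q * Q ^ n) := by
  induction n with
  | zero => simp
  | succ n ih =>
    rw [pow_succ', ctr_even_mul d hQ, ih, mul_smul_comm, ← mul_assoc, (commute_of_even hQ _).eq, mul_assoc, ← pow_succ',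
      Nat.cast_succ]
    module

theorem ctr_exp (d : Module.Dual ℝ (GV I)) {Q : Gr I} (hQ : Q ∈ evenOdd (0 : QuadraticForm ℝ (GV I)) 0)
    (h : IsNilpotent Q) : ctr d (IsNilpotent.exp Q) = ctr d Q * IsNilpotent.exp Q := by
  obtain ⟨k, hk⟩ := h
  nth_rewrite 1 [exp_real (k := k + 1) (by rw [pow_succ, hk, zero_mul])]
  rw [exp_real hk, Finset.sum_range_succ', map_add, map_smul, pow_zero, ctr_one, smul_zero, add_zero, map_sum,
    Finset.mul_sum]
  refine Finset.sum_congr rfl fun i _ => ?_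
  rw [map_smul, ctr_pow d hQ, smul_smul, mul_smul_comm, Nat.factorial_succ]
  congr 1
  push_cast
  field_simp

theorem ctr_quad (s : Finset I) {q : I → I → ℝ} (hq : Antisym q) {i : I} (hi : i ∈ s) :
    ctr (Finsupp.lapply i) (quad s q) = ∑ b ∈ s, q i b • th b := by
  have e : ∀ a b : I, ctr (Finsupp.lapply i) (th a * th b) =
      (if a = i then th b else 0) - if b = i then th a else 0 := fun a b => by
    rw [th, ctr_iota_mul, th, contractLeft_ι, ← Algebra.commutes, ← Algebra.smul_def]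
    simp [Finsupp.single_apply]
  simp only [quad, map_smul, map_sum, e, smul_sub, Finset.sum_sub_distrib, smul_ite, smul_zero, Finset.sum_ite_eq', hi,
    if_true]
  rw [Finset.sum_comm]
  simp only [Finset.sum_ite_eq', hi, if_true, hq i, neg_smul, Finset.sum_neg_distrib]
  module

theorem gauss_th_mul {g : I → I → ℝ} (hg : Antisym g) (s : Finset I) (k : I) {z : Gr I} (hz : z ∈ supA (s : Set I)) :
    gauss g (th k * z) = ∑ j ∈ s, g k j * gauss g (ctr (Finsupp.lapply j) z) := by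
  rw [th, gauss_iota_mul, ctr_eq_sum _ s hz, map_sum]
  simp only [map_smul, hg.bil_single, smul_eq_mul]

theorem sum_inv {s : Finset I} {a g : I → I → ℝ} {i : I} (hi : i ∈ s) (h : ∀ j ∈ s, ∑ k ∈ s, a k j * g i k = if j = i then -1 else 0)
    (X : I → ℝ) : ∑ k ∈ s, g i k * ∑ j ∈ s, a k j * X j = -X i := by
  simp only [Finset.mul_sum]
  rw [Finset.sum_comm, Finset.sum_congr rfl fun j hj => (show ∑ k ∈ s, g i k * (a k j * X j) = (if j = i then -1 else 0) * X j by
    rw [← h j hj, Finset.sum_mul]; exact Finset.sum_congr rfl fun _ _ => by ring)]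
  simp [hi]

/-- change of Gaussian measure (Schwinger–Dyson uniqueness). `a₀ g₀ᵀ = 1` on the finite set `s`, and the rows
`g k`, `k ∈ s'`, solve `(a₀ + q) (g k) = δ_k` on `s`. -/
theorem gauss_change (s s' : Finset I) (hs : s' ⊆ s) {a₀ q g₀ g : I → I → ℝ} (ha : Antisym a₀) (hq : Antisym q)
    (hg₀ : Antisym g₀) (hg : Antisym g)
    (h₀ : ∀ i ∈ s, ∀ k ∈ s, ∑ j ∈ s, a₀ i j * g₀ k j = if i = k then 1 else 0)
    (h₁ : ∀ i ∈ s, ∀ k ∈ s', ∑ j ∈ s, (a₀ i j + q i j) * g k j = if i = k then 1 else 0)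
    {x : Gr I} (hx : x ∈ supA (s' : Set I)) :
    gauss g₀ (IsNilpotent.exp (quad s q) * x) = gauss g₀ (IsNilpotent.exp (quad s q)) * gauss g x := by
  set E := IsNilpotent.exp (quad s q) with hE
  have hEe : E ∈ evenOdd (0 : QuadraticForm ℝ (GV I)) 0 :=
    exp_mem (quad_nilpotent s q) (A := CliffordAlgebra.even 0) (quad_even s q)
  have hEs : E ∈ supA (s : Set I) := exp_mem (quad_nilpotent s q) (quad_mem_supA s q)
  have sd1 : ∀ i ∈ s, ∀ z ∈ supA (s : Set I),
      ∑ k ∈ s, a₀ i k * gauss g₀ (th k * z) = -gauss g₀ (ctr (Finsupp.lapply i) z) := fun i hi z hz => by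
    simp only [gauss_th_mul hg₀ s _ hz]
    refine sum_inv hi (fun j hj => ?_) _
    have := h₀ i hi j hj
    rw [Finset.sum_congr rfl fun k _ => show g₀ k j * a₀ i k = -(a₀ i k * g₀ j k) by rw [hg₀ j k]; ring,
      Finset.sum_neg_distrib, this]
    by_cases h : i = j <;> simp [h, eq_comm]
  have sd2 : ∀ i ∈ s, ∀ z ∈ supA (s : Set I), ∑ k ∈ s, (a₀ i k + q i k) * gauss g₀ (E * (th k * z)) =
      -gauss g₀ (E * ctr (Finsupp.lapply i) z) := fun i hi z hz => by
    have := sd1 i hi _ (Subalgebra.mul_mem _ hEs hz)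
    rw [ctr_even_mul _ hEe, hE, ctr_exp _ (quad_even s q) (quad_nilpotent s q), ← hE, ctr_quad s hq hi, map_add,
      Finset.sum_mul, Finset.sum_mul, map_sum] at this
    simp only [smul_mul_assoc, map_smul, smul_eq_mul] at this
    simp only [← mul_assoc, ← (commute_of_even hEe _).eq] at this
    simp only [add_mul, Finset.sum_add_distrib, ← mul_assoc]
    linarith
  have sd3 : ∀ k ∈ s', ∀ z ∈ supA (s : Set I),
      gauss g₀ (E * (th k * z)) = gauss g₀ (E * ctr (bil g (Finsupp.single k 1)) z) := fun k hk z hz => by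
    have := sum_inv (a := fun i k => a₀ i k + q i k) (g := g) (hs hk) (fun j hj => by
      have := h₁ j hj k hk
      rw [Finset.sum_congr rfl fun i _ => show (a₀ i j + q i j) * g k i = -((a₀ j i + q j i) * g k i) by
        rw [ha j i, hq j i]; ring, Finset.sum_neg_distrib, this]
      by_cases h : j = k <;> simp [h]) fun j => gauss g₀ (E * (th j * z))
    rw [Finset.sum_congr rfl fun i hi => by rw [sd2 i hi z hz]] at this
    rw [ctr_eq_sum _ s hz, Finset.mul_sum, map_sum]
    simp only [mul_smul_comm, map_smul, hg.bil_single, smul_eq_mul]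
    simp only [mul_neg, Finset.sum_neg_distrib, neg_inj] at this
    exact this.symm
  have key : ∀ y ∈ supA (s' : Set I), gauss g₀ (E * mu (-g) y) = gauss g₀ E * aug y := fun y hy => by
    refine supA_induction ?_ (fun x y hx hy => ?_) (fun c x hx => ?_) (fun i hi x hx _ => ?_) hy
    · rw [mu_one, map_one, mul_one, mul_one]
    · simp only [map_add, mul_add, hx, hy]
    · simp only [map_smul, mul_smul_comm, hx]
    · have := sd3 i hi _ (supA_mono (Finset.coe_subset.2 hs) (mu_mem_supA (-g) hx))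
      rw [map_mul aug, th, aug_iota, zero_mul, mul_zero, mu_iota_mul, mul_add, map_add, ← th, this, ← neg_one_smul ℝ g,
        bil_smul]
      simp
  have := key _ (mu_mem_supA g hx)
  rwa [← mu_add, neg_add_cancel, mu_zero] at this

theorem gauss_quad {g : I → I → ℝ} (hg : Antisym g) (s : Finset I) (q : I → I → ℝ) :
    gauss g (quad s q) = 1 / 2 * ∑ i ∈ s, ∑ j ∈ s, q i j * g i j := by
  simp only [quad, map_smul, map_sum, gauss_th_th hg, smul_eq_mul]

/-- the covariance of an invertible antisymmetric matrix -/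
theorem exists_cov (s : Finset I) {a : I → I → ℝ} (ha : Antisym a) (hd : (Matrix.of fun i j : s => a i j).det ≠ 0) :
    ∃ g : I → I → ℝ, Antisym g ∧ (∀ i ∈ s, ∀ k ∈ s, ∑ j ∈ s, a i j * g k j = if i = k then 1 else 0) ∧
      ∀ i j : s, g i j = (Matrix.of fun i j : s => a i j)⁻¹ j i := by
  set M := Matrix.of fun i j : s => a i j with hM
  have h1 : M.transpose = -M := by
    ext i j
    exact ha i j
  have h2 : M⁻¹.transpose = -M⁻¹ := by
    rw [Matrix.transpose_nonsing_inv, h1]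
    exact Matrix.inv_eq_right_inv (by rw [neg_mul_neg, M.mul_nonsing_inv hd.isUnit])
  refine ⟨fun i j => if h : i ∈ s ∧ j ∈ s then M⁻¹ ⟨j, h.2⟩ ⟨i, h.1⟩ else 0, fun i j => ?_, fun i hi k hk => ?_,
    fun i j => by simp⟩
  · by_cases h : i ∈ s ∧ j ∈ s
    · simp only [h, and_self, dif_pos]
      exact congrFun (congrFun h2 ⟨j, h.2⟩) ⟨i, h.1⟩
    · simp only [dif_neg h, dif_neg (mt And.symm h), neg_zero]
  · have := congrFun (congrFun (M.mul_nonsing_inv hd.isUnit) ⟨i, hi⟩) ⟨k, hk⟩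
    rw [Matrix.mul_apply, Matrix.one_apply] at this
    rw [← Finset.sum_coe_sort s]
    simpa [hk, hM] using this

theorem hasDerivAt_det {n : Type} [Fintype n] [DecidableEq n] (A B : Matrix n n ℝ) {τ : ℝ} (h : (A + τ • B).det ≠ 0) :
    HasDerivAt (fun σ : ℝ => (A + σ • B).det) ((A + τ • B).det * ((A + τ • B)⁻¹ * B).trace) τ := by
  set M := A + τ • B with hM
  set p := (Matrix.det (1 + (Polynomial.X : Polynomial ℝ) • (M⁻¹ * B).map Polynomial.C)).divX.divX
  have e : (fun σ : ℝ => (A + σ • B).det) =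
      fun σ => M.det * (1 + (M⁻¹ * B).trace * (σ - τ) + p.eval (σ - τ) * (σ - τ) ^ 2) := by
    funext σ
    rw [← Matrix.det_one_add_smul, ← Matrix.det_mul, mul_add, mul_one, Matrix.mul_smul, ← mul_assoc,
      M.mul_nonsing_inv h.isUnit, one_mul, hM, add_assoc, ← add_smul, add_sub_cancel]
  rw [e]
  have h1 : HasDerivAt (fun σ : ℝ => σ - τ) 1 τ := (hasDerivAt_id τ).sub_const τ
  have h2 := ((p.hasDerivAt (τ - τ)).comp (h := fun σ : ℝ => σ - τ) τ h1).mul (h1.pow 2)
  exact ((((h1.const_mul (M⁻¹ * B).trace).const_add 1).add h2).const_mul M.det).congr_deriv (by simp)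

theorem hasDerivAt_exp (φ : Gr I →ₗ[ℝ] ℝ) {Q : Gr I} (h : IsNilpotent Q) :
    (∀ τ : ℝ, HasDerivAt (fun σ : ℝ => φ (IsNilpotent.exp (σ • Q))) (φ (IsNilpotent.exp (τ • Q) * Q)) τ) ∧
      AnalyticOnNhd ℝ (fun σ : ℝ => φ (IsNilpotent.exp (σ • Q))) Set.univ := by
  obtain ⟨k, hk⟩ := h
  have e : (fun σ : ℝ => φ (IsNilpotent.exp (σ • Q))) =
      fun σ => ∑ i ∈ Finset.range (k + 1), (i.factorial : ℝ)⁻¹ * (σ ^ i * φ (Q ^ i)) := by
    funext σ
    rw [exp_real (k := k + 1) (by rw [smul_pow, pow_succ Q, hk, zero_mul, smul_zero]), map_sum]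
    simp only [smul_pow, map_smul, smul_eq_mul]
  rw [e]
  refine ⟨fun τ => ?_, fun σ _ => by fun_prop⟩
  refine (HasDerivAt.fun_sum (u := Finset.range (k + 1)) fun i _ =>
    (((hasDerivAt_pow i τ).mul_const (φ (Q ^ i))).const_mul (i.factorial : ℝ)⁻¹)).congr_deriv (Eq.symm ?_)
  rw [exp_real (k := k) (by rw [smul_pow, hk, smul_zero]), Finset.sum_mul, map_sum, Finset.sum_range_succ']
  simp only [smul_pow, smul_mul_assoc, map_smul, smul_eq_mul, ← pow_succ, Nat.cast_zero, zero_mul, mul_zero, add_zero,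
    Nat.factorial_succ, Nat.add_sub_cancel]
  refine Finset.sum_congr rfl fun i _ => ?_
  push_cast
  field_simp

/-- `Pf² = det` in ratio form -/
theorem gauss_exp_sq (s : Finset I) {a₀ q g₀ : I → I → ℝ} (ha : Antisym a₀) (hq : Antisym q)
    (hg₀ : Antisym g₀)
    (h₀ : ∀ i ∈ s, ∀ k ∈ s, ∑ j ∈ s, a₀ i j * g₀ k j = if i = k then 1 else 0) :
    gauss g₀ (IsNilpotent.exp (quad s q)) ^ 2 * (Matrix.of fun i j : s => a₀ i j).det =
      (Matrix.of fun i j : s => a₀ i j + q i j).det := by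
  set A := Matrix.of fun i j : s => a₀ i j with hA
  set B := Matrix.of fun i j : s => q i j with hB
  obtain ⟨hZ, hZa⟩ := hasDerivAt_exp (gauss g₀) (quad_nilpotent s q)
  set Z := fun σ : ℝ => gauss g₀ (IsNilpotent.exp (σ • quad s q)) with hZd
  have hDa : AnalyticOnNhd ℝ (fun σ : ℝ => (A + σ • B).det) Set.univ := fun σ _ => by
    simp only [Matrix.det_apply', Matrix.add_apply, Matrix.smul_apply, smul_eq_mul]
    fun_prop
  have hA0 : A.det ≠ 0 := by
    have : A * (Matrix.of fun j k : s => g₀ k j) = 1 := by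
      ext i k
      have := h₀ i i.2 k k.2
      rw [← Finset.sum_coe_sort s] at this
      simpa [Matrix.mul_apply, Matrix.one_apply, hA] using this
    exact Matrix.det_ne_zero_of_right_inverse this
  have hd : ∀ τ : ℝ, (A + τ • B).det ≠ 0 → HasDerivAt (fun σ => Z σ ^ 2 / (A + σ • B).det) 0 τ := fun τ hτ => by
    have hq' : Antisym (τ • q) := fun i j => by simp [hq i j]
    have eM : A + τ • B = Matrix.of fun i j : s => a₀ i j + (τ • q) i j := by
      ext i j
      simp [hA, hB]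
    obtain ⟨g, hg, h1, h2⟩ := exists_cov s (a := fun i j => a₀ i j + (τ • q) i j)
      (fun i j => by simp only [ha i j, hq' i j]; ring) (eM ▸ hτ)
    have h3 := gauss_change s s subset_rfl ha hq' hg₀ hg h₀ h1 (quad_mem_supA s q)
    rw [quad_smul, gauss_quad hg] at h3
    have h4 : ((A + τ • B)⁻¹ * B).trace = ∑ i ∈ s, ∑ j ∈ s, q i j * g i j := by
      simp only [← Finset.sum_coe_sort s, h2, ← eM, Matrix.trace, Matrix.diag, Matrix.mul_apply]
      rw [Finset.sum_comm]
      simp only [hB, Matrix.of_apply, mul_comm]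
    refine (((hZ τ).pow 2).div (hasDerivAt_det A B hτ) hτ).congr_deriv ?_
    rw [h3, h4]
    simp only [hZd, Pi.pow_apply]
    ring
  have hev : ∀ᶠ τ : ℝ in nhds 0, (A + τ • B).det ≠ 0 :=
    (hDa 0 trivial).continuousAt.eventually_ne (by simpa using hA0)
  obtain ⟨ε, hε, hb⟩ := Metric.eventually_nhds_iff_ball.1 hev
  have hloc : (fun σ => Z σ ^ 2 * A.det) =ᶠ[nhds 0] fun σ : ℝ => (A + σ • B).det := by
    filter_upwards [Metric.ball_mem_nhds 0 hε] with τ hτ
    have := Metric.isOpen_ball.is_const_of_deriv_eq_zero (convex_ball (0 : ℝ) ε).isPreconnected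
      (fun σ hσ => (hd σ (hb σ hσ)).differentiableAt.differentiableWithinAt) (fun σ hσ => (hd σ (hb σ hσ)).deriv)
      hτ (Metric.mem_ball_self hε)
    simp only [hZd, zero_smul, IsNilpotent.exp_zero, gauss_one, add_zero, one_pow] at this
    rw [div_eq_div_iff (hb τ hτ) hA0, one_mul] at this
    exact this
  have := congrFun (((hZa.pow 2).mul analyticOnNhd_const).eq_of_eventuallyEq hDa hloc) 1
  simp only [hZd, Pi.pow_apply, one_smul] at this
  exact this

end Crest.Agent.R165
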