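import Crest.Agent.R165.G.Basic

/-! # R165 block G: Pfaffians (owner helper53; statements FROZEN, add lemmas freely) -/

set_option autoImplicit false
noncomputable section
open Classical

namespace Crest.Agent.R165

variable {I : Type}

theorem ctr_wedge_zero {d : Module.Dual ℝ (GV I)} {l : List (GV I)} (h : ∀ v ∈ l, d v = 0) : ctr d (wedge l) = 0 := by
  induction l with
  | nil => exact ctr_one d
  | cons v l ih =>
    rw [wedge_cons, ctr_iota_mul, h v (by simp), ih fun w hw => h w (by simp [hw]), zero_smul, mul_zero, sub_zero]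

theorem mul_wedge_congr {ι : Type} {w : Gr I} (hw : ∀ x, Commute w x) {f f' : ι → GV I}
    (h : ∀ a, w * ExteriorAlgebra.ι ℝ (f a) = w * ExteriorAlgebra.ι ℝ (f' a)) (l : List ι) :
    w * wedge (l.map f) = w * wedge (l.map f') := by
  induction l with
  | nil => rfl
  | cons a l ih =>
    rw [List.map_cons, List.map_cons, wedge_cons, wedge_cons, ← mul_assoc, h, (hw _).eq, mul_assoc, ih, ← mul_assoc,
      ← (hw _).eq, mul_assoc]

theorem det_bil_op {m : ℕ} (B : LinearMap.BilinForm ℝ (GV I)) (x : Fin m → GV I) (c : Fin m → ℝ) (k : Fin m) (hk : c k = 0) :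
    (Matrix.of fun a b => B (x a + c a • x k) (x b + c b • x k)).det = (Matrix.of fun a b => B (x a) (x b)).det := by
  have h1 : ∀ (B : LinearMap.BilinForm ℝ (GV I)) (y : Fin m → GV I),
      (Matrix.of fun a b => B (x a + c a • x k) (y b)).det = (Matrix.of fun a b => B (x a) (y b)).det := fun B y =>
    Matrix.det_eq_of_forall_row_eq_smul_add_const c k hk fun a b => by simp
  rw [h1, ← Matrix.det_transpose, ← Matrix.det_transpose (Matrix.of fun a b => B (x a) (x b))]
  exact h1 B.flip x

theorem pf_row {g : I → I → ℝ} {n : ℕ} (u : Fin (n + 1) → GV I) (h : ∀ a, bil g (u 0) (u a) = 0) :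
    gauss g (wedge (List.ofFn u)) ^ 2 = (Matrix.of fun a b => bil g (u a) (u b)).det := by
  rw [Matrix.det_eq_zero_of_row_eq_zero 0 h, List.ofFn_succ, wedge_cons, gauss_iota_mul, ctr_wedge_zero, map_zero,
    zero_pow two_ne_zero]
  intro v hv
  obtain ⟨a, rfl⟩ := (List.mem_ofFn' _ _).1 hv
  exact h _

theorem pf_step {g : I → I → ℝ} {n : ℕ}
    (ih : ∀ u : Fin n → GV I, gauss g (wedge (List.ofFn u)) ^ 2 = (Matrix.of fun a b => bil g (u a) (u b)).det)
    (u : Fin (n + 2) → GV I) (hc : bil g (u 0) (u 1) ≠ 0) :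
    gauss g (wedge (List.ofFn u)) ^ 2 = (Matrix.of fun a b => bil g (u a) (u b)).det := by
  set c := bil g (u 0) (u 1) with hcd
  let u' : Fin n → GV I := fun a =>
    u a.succ.succ + (-bil g (u 0) (u a.succ.succ) / c) • u 1 + (bil g (u 1) (u a.succ.succ) / c) • u 0
  have o0 : ∀ a, bil g (u 0) (u' a) = 0 := fun a => by
    simp only [u', map_add, map_smul, smul_eq_mul, bil_self, ← hcd]
    field_simp
    ring
  have e1 : gauss g (wedge (List.ofFn u)) = c * gauss g (wedge (List.ofFn u')) := by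
    rw [List.ofFn_succ, List.ofFn_succ, wedge_cons, wedge_cons, ← mul_assoc, List.ofFn_eq_map, List.ofFn_eq_map,
      mul_wedge_congr (f' := u') (commute_iota_iota _ _) fun a => ?_, mul_assoc, gauss_iota_mul, ctr_iota_mul,
      ctr_wedge_zero, mul_zero, sub_zero, map_smul, smul_eq_mul]
    · rfl
    · intro v hv
      obtain ⟨a, -, rfl⟩ := List.mem_map.1 hv
      exact o0 a
    · simp only [u', map_add, map_smul, mul_add, mul_smul_comm, Fin.succ_zero_eq_one]
      rw [mul_assoc _ _ (ExteriorAlgebra.ι ℝ (u 1)), ExteriorAlgebra.ι_sq_zero, (commute_iota_iota _ _ (ExteriorAlgebra.ι ℝ (u 0))).eq,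
        ← mul_assoc, ExteriorAlgebra.ι_sq_zero]
      simp
  let c1 : Fin (n + 2) → ℝ := Fin.cons 0 (Fin.cons 0 fun a => -bil g (u 0) (u a.succ.succ) / c)
  let c0 : Fin (n + 2) → ℝ := Fin.cons 0 (Fin.cons 0 fun a => bil g (u 1) (u a.succ.succ) / c)
  have e2 := (det_bil_op (bil g) (fun a => u a + c1 a • u 1) c0 0 rfl).trans (det_bil_op (bil g) u c1 1 rfl)
  have e3 : ∀ a, u a + c1 a • u 1 + c0 a • (u 0 + c1 0 • u 1) = (Fin.cons (u 0) (Fin.cons (u 1) u') : Fin (n + 2) → GV I) a :=
    fun a => Fin.cases (by simp [c0, c1]) (fun a => Fin.cases (by simp [c0, c1]) (fun a => by simp [c0, c1, u']) a) a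
  simp only [e3] at e2
  rw [e1, ← e2, mul_pow, ih, Matrix.det_succ_row_zero, Fin.sum_univ_succ, Fin.sum_univ_succ, Finset.sum_eq_zero fun a _ => by
    simp [o0], Matrix.det_succ_column_zero (Matrix.submatrix _ _ (Fin.succAbove (Fin.succ 0))), Fin.sum_univ_succ,
    Finset.sum_eq_zero fun a _ => by simp [bil_swap g (u 0), o0]]
  simp [bil_self, bil_swap g (u 0) (u 1), ← hcd, Matrix.submatrix]
  ring

/-- All lengths.  Two-step induction on `n` for all `u`; `wedge (List.ofFn u) = ExteriorAlgebra.ιMulti ℝ n u` (`ιMulti_apply`).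
If row `0` of the matrix vanishes, both sides are `0` (`gauss_iota_mul`; a contraction `d` with `d (u a) = 0` for all `a` kills the wedge:
`CliffordAlgebra.contractLeft_ι_mul`; `Matrix.det_eq_zero_of_row_eq_zero`); this covers `n = 1` (`bil_self`).  Otherwise `c = bil g (u 0) (u j) ≠ 0`, `j ≠ 0`;
compose `u` with `Equiv.swap 1 j` (`AlternatingMap.map_swap`, `Matrix.det_submatrix_equiv_self`), so `j = 1`.  Put
`u' a = u (a+2) - (bil (u 0) (u (a+2)) / c) • u 1 + (bil (u 1) (u (a+2)) / c) • u 0`, orthogonal to `u 0`, `u 1`.  `w = ι (u 0) * ι (u 1)` commutes with every `ι v` and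
`w * ι (u 0) = w * ι (u 1) = 0`, so `w * wedge u' = w * wedge (tail)`; `gauss (w * wedge u') = c * gauss (wedge u')` (`gauss_iota_mul`).  Determinant: reindex by
`finSumFinEquiv`/`Fin 2 ⊕ Fin n`, Schur complement `Matrix.det_fromBlocks₁₁` with `A = !![0, c; -c, 0]`: `D - C A⁻¹ B` is the matrix of `u'`
(or: column/row operations `Matrix.det_eq_of_forall_row_eq_smul_add_const`). -/
theorem gauss_wedge_sq' (g : I → I → ℝ) (n : ℕ) (u : Fin n → GV I) :
    gauss g (wedge (List.ofFn u)) ^ 2 = (Matrix.of fun a b => bil g (u a) (u b)).det := by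
  induction n using Nat.twoStepInduction with
  | zero => simp [wedge_nil, gauss_one]
  | one => exact pf_row u fun a => by rw [Fin.fin_one_eq_zero a, bil_self]
  | more n ih _ =>
    by_cases h : ∀ a, bil g (u 0) (u a) = 0
    · exact pf_row u h
    obtain ⟨j, hj⟩ := not_forall.1 h
    have j0 : (0 : Fin (n + 2)) ≠ j := by
      rintro rfl
      exact hj (bil_self _ _)
    have := pf_step ih (u ∘ Equiv.swap 1 j) (by
      rwa [Function.comp_apply, Function.comp_apply, Equiv.swap_apply_left, Equiv.swap_apply_of_ne_of_ne Fin.zero_ne_one j0])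
    have e : ∀ v : Fin (n + 2) → GV I, wedge (List.ofFn v) = ExteriorAlgebra.ιMulti ℝ (n + 2) v := fun v => by
      rw [ExteriorAlgebra.ιMulti_apply, wedge, List.map_ofFn]
      rfl
    rw [e, AlternatingMap.map_perm, ← e] at this
    rw [← Matrix.det_submatrix_equiv_self (Equiv.swap 1 j)]
    refine Eq.trans ?_ this
    rcases Int.units_eq_one_or (Equiv.Perm.sign (Equiv.swap 1 j)) with h | h <;> simp [h]

/-- `Pf² = det` for a product of vectors -/
theorem gauss_wedge_sq (g : I → I → ℝ) (k : ℕ) (u : Fin (2 * k) → GV I) :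
    gauss g (wedge (List.ofFn u)) ^ 2 = (Matrix.of fun a b => bil g (u a) (u b)).det :=
  gauss_wedge_sq' g _ u

end Crest.Agent.R165
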